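import Vale.Agent.P207.H442.Int
import Vale.Agent.P207.Kat.Q

/-!
# P207 / H158: scalars, admissible fields and matrix fields along the unit tangent bundle

`IsRot C a E`: the algebra endomorphism `E` of the functions of frames is the pull back by the
rotation of the frames with the orthogonal matrix `a`.  `StabAct C ι`: a family of such rotations
which fix `e₀`.  `scal`: the functions of `v = e₀`; `adm`: the fields along the unit tangent bundle
which are orthogonal to `v`; `IsMat`: endomorphisms of the orthogonal complement of `v`.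
-/

set_option linter.unusedSectionVars false

noncomputable section

namespace Vale.Agent.P207.H158

open Vale.Agent.P207.H442 Vale.Agent.P207.Kat Finset

variable {n : ℕ} {A : Type*} [CommRing A] [Algebra ℝ A]

/-- `E` is the pull back by the rotation of the frames with the orthogonal matrix `a` -/
structure IsRot (C : FrCalc n A) (a : Matrix (Fin n) (Fin n) ℝ) (E : A →ₐ[ℝ] A) : Prop where
  orth : ∀ j k, ∑ i, a j i * a k i = if j = k then 1 else 0
  H : ∀ i f, E (C.H i f) = ∑ j, a j i • C.H j (E f)
  V : ∀ i j f, E (C.V i j f) = ∑ k, ∑ l, (a k i * a l j) • C.V k l (E f)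
  R : ∀ i j k l, E (C.R i j k l) =
    ∑ p, ∑ q, ∑ r, ∑ s, (a p i * a q j * a r k * a s l) • C.R p q r s

section Sums

variable {a : Matrix (Fin n) (Fin n) ℝ}

theorem sum_orth (ho : ∀ j k, ∑ i, a j i * a k i = if j = k then 1 else 0) (T : Fin n → Fin n → A) :
    ∑ i, ∑ k, ∑ l, (a k i * a l i) • T k l = ∑ k, T k k := by
  calc ∑ i, ∑ k, ∑ l, (a k i * a l i) • T k l
      = ∑ k, ∑ i, ∑ l, (a k i * a l i) • T k l := Finset.sum_comm
    _ = ∑ k, ∑ l, ∑ i, (a k i * a l i) • T k l :=
        Finset.sum_congr rfl fun k _ => Finset.sum_comm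
    _ = ∑ k, ∑ l, (if k = l then (1 : ℝ) else 0) • T k l := by
        simp only [← Finset.sum_smul, ho]
    _ = ∑ k, T k k := by simp

/-- the matrix form of a contraction -/
theorem sum_mul_orth (ho : ∀ j k, ∑ i, a j i * a k i = if j = k then 1 else 0) (y z : Fin n → A) :
    ∑ i, (∑ k, a k i • y k) * (∑ l, a l i • z l) = ∑ k, y k * z k := by
  rw [← sum_orth ho fun k l => y k * z l]
  refine Finset.sum_congr rfl fun i _ => ?_
  rw [Finset.sum_mul_sum]
  refine Finset.sum_congr rfl fun k _ => Finset.sum_congr rfl fun l _ => ?_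
  rw [smul_mul_smul_comm]

end Sums

variable (C : FrCalc n A)

/-- a family of rotations of the frames -/
structure RotAct (ι : Type*) where
  a : ι → Matrix (Fin n) (Fin n) ℝ
  E : ι → A →ₐ[ℝ] A
  rot : ∀ s, IsRot C (a s) (E s)

variable {C}

namespace RotAct

variable {ι : Type*} (S : RotAct C ι)

/-- invariant functions -/
def scal : Subalgebra ℝ A where
  carrier := {f | ∀ s, S.E s f = f}
  mul_mem' {f h} hf hh s := by rw [map_mul, hf s, hh s]
  one_mem' s := map_one _
  add_mem' {f h} hf hh s := by rw [map_add, hf s, hh s]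
  zero_mem' s := map_zero _
  algebraMap_mem' c s := by rw [AlgHom.commutes]

theorem mem_scal {f : A} : f ∈ S.scal ↔ ∀ s, S.E s f = f := Iff.rfl

/-- equivariant vectors -/
def vec : Submodule ℝ (Fin n → A) where
  carrier := {w | ∀ s i, S.E s (w i) = ∑ j, S.a s j i • w j}
  add_mem' {w u} hw hu s i := by
    simp only [Pi.add_apply, map_add, hw s i, hu s i, smul_add, Finset.sum_add_distrib]
  zero_mem' s i := by simp
  smul_mem' c w hw s i := by
    simp only [Pi.smul_apply, map_smul, hw s i, Finset.smul_sum, smul_comm c]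

theorem mem_vec {w : Fin n → A} : w ∈ S.vec ↔ ∀ s i, S.E s (w i) = ∑ j, S.a s j i • w j := Iff.rfl

/-- equivariant matrices -/
def mat : Submodule ℝ (Fin n → Fin n → A) where
  carrier := {k | ∀ s i j, S.E s (k i j) = ∑ p, ∑ q, (S.a s p i * S.a s q j) • k p q}
  add_mem' {w u} hw hu s i j := by
    simp only [Pi.add_apply, map_add, hw s i j, hu s i j, smul_add, Finset.sum_add_distrib]
  zero_mem' s i j := by simp
  smul_mem' c w hw s i j := by
    simp only [Pi.smul_apply, map_smul, hw s i j, Finset.smul_sum, smul_comm c]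

theorem mem_mat {k : Fin n → Fin n → A} : k ∈ S.mat ↔
    ∀ s i j, S.E s (k i j) = ∑ p, ∑ q, (S.a s p i * S.a s q j) • k p q := Iff.rfl

/-- equivariant families with three indices -/
def ten3 : Submodule ℝ (Fin n → Fin n → Fin n → A) where
  carrier := {T | ∀ s i j k, S.E s (T i j k) =
    ∑ p, ∑ q, ∑ r, (S.a s p i * S.a s q j * S.a s r k) • T p q r}
  add_mem' {w u} hw hu s i j k := by
    simp only [Pi.add_apply, map_add, hw s i j k, hu s i j k, smul_add, Finset.sum_add_distrib]
  zero_mem' s i j k := by simp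
  smul_mem' c w hw s i j k := by
    simp only [Pi.smul_apply, map_smul, hw s i j k, Finset.smul_sum, smul_comm c]

theorem mem_ten3 {T : Fin n → Fin n → Fin n → A} : T ∈ S.ten3 ↔ ∀ s i j k, S.E s (T i j k) =
    ∑ p, ∑ q, ∑ r, (S.a s p i * S.a s q j * S.a s r k) • T p q r := Iff.rfl

variable {S}

/-! ### algebra -/

theorem vec_mul {f : A} (hf : f ∈ S.scal) {w : Fin n → A} (hw : w ∈ S.vec) :
    (fun i => f * w i) ∈ S.vec := by
  intro s i
  rw [map_mul, hf s, hw s i, Finset.mul_sum]
  exact Finset.sum_congr rfl fun j _ => mul_smul_comm _ _ _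

theorem mat_mul_scal {f : A} (hf : f ∈ S.scal) {k : Fin n → Fin n → A} (hk : k ∈ S.mat) :
    (fun i j => f * k i j) ∈ S.mat := by
  intro s i j
  rw [map_mul, hf s, hk s i j, Finset.mul_sum]
  refine Finset.sum_congr rfl fun p _ => ?_
  rw [Finset.mul_sum]
  exact Finset.sum_congr rfl fun q _ => mul_smul_comm _ _ _

theorem vec_vec {w u : Fin n → A} (hw : w ∈ S.vec) (hu : u ∈ S.vec) :
    (fun i j => w i * u j) ∈ S.mat := by
  intro s i j
  rw [map_mul, hw s i, hu s j, Finset.sum_mul_sum]
  exact Finset.sum_congr rfl fun p _ => Finset.sum_congr rfl fun q _ => by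
    rw [smul_mul_smul_comm]

theorem mat_swap {k : Fin n → Fin n → A} (hk : k ∈ S.mat) : (fun i j => k j i) ∈ S.mat := by
  intro s i j
  rw [hk s j i, Finset.sum_comm]
  exact Finset.sum_congr rfl fun p _ => Finset.sum_congr rfl fun q _ => by rw [mul_comm]

/-- contraction of two vectors -/
theorem dot_mem {w u : Fin n → A} (hw : w ∈ S.vec) (hu : u ∈ S.vec) :
    ∑ i, w i * u i ∈ S.scal := by
  intro s
  simp only [map_sum, map_mul, hw s, hu s]
  exact sum_mul_orth (S.rot s).orth w u

/-- the trace of a matrix -/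
theorem tr_mem {k : Fin n → Fin n → A} (hk : k ∈ S.mat) : ∑ i, k i i ∈ S.scal := by
  intro s
  simp only [map_sum, hk s]
  exact sum_orth (S.rot s).orth k

/-- a matrix times a vector -/
theorem app_mem {k : Fin n → Fin n → A} (hk : k ∈ S.mat) {w : Fin n → A} (hw : w ∈ S.vec) :
    (fun i => ∑ j, k i j * w j) ∈ S.vec := by
  intro s i
  simp only [map_sum, map_mul, hk s, hw s]
  have h1 : ∀ j, (∑ p, ∑ q, (S.a s p i * S.a s q j) • k p q) * (∑ l, S.a s l j • w l) =
      ∑ p, S.a s p i • ((∑ q, S.a s q j • k p q) * (∑ l, S.a s l j • w l)) := by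
    intro j
    rw [Finset.sum_mul]
    refine Finset.sum_congr rfl fun p _ => ?_
    rw [← smul_mul_assoc, Finset.smul_sum]
    simp only [smul_smul]
  simp only [h1]
  rw [Finset.sum_comm]
  refine Finset.sum_congr rfl fun p _ => ?_
  rw [← Finset.smul_sum, sum_mul_orth (S.rot s).orth (fun q => k p q) w]

/-- product of matrices -/
theorem mul_mem {k l : Fin n → Fin n → A} (hk : k ∈ S.mat) (hl : l ∈ S.mat) :
    (fun i j => ∑ c, k i c * l c j) ∈ S.mat := by
  intro s i j
  simp only [map_sum, map_mul, hk s, hl s]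
  have h1 : ∀ c, (∑ p, ∑ q, (S.a s p i * S.a s q c) • k p q) *
      (∑ q', ∑ r, (S.a s q' c * S.a s r j) • l q' r) =
      ∑ p, ∑ r, (S.a s p i * S.a s r j) •
        ((∑ q, S.a s q c • k p q) * (∑ q', S.a s q' c • l q' r)) := by
    intro c
    have e1 : (∑ p, ∑ q, (S.a s p i * S.a s q c) • k p q) =
        ∑ p, S.a s p i • ∑ q, S.a s q c • k p q :=
      Finset.sum_congr rfl fun p _ => by rw [Finset.smul_sum]; simp only [smul_smul]
    have e2 : (∑ q', ∑ r, (S.a s q' c * S.a s r j) • l q' r) =
        ∑ r, S.a s r j • ∑ q', S.a s q' c • l q' r := by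
      rw [Finset.sum_comm]
      exact Finset.sum_congr rfl fun r _ => by
        rw [Finset.smul_sum]; simp only [smul_smul, mul_comm (S.a s r j)]
    rw [e1, e2, Finset.sum_mul_sum]
    refine Finset.sum_congr rfl fun p _ => Finset.sum_congr rfl fun r _ => ?_
    rw [smul_mul_smul_comm]
  simp only [h1]
  rw [Finset.sum_comm]
  refine Finset.sum_congr rfl fun p _ => ?_
  rw [Finset.sum_comm]
  refine Finset.sum_congr rfl fun r _ => ?_
  rw [← Finset.smul_sum, sum_mul_orth (S.rot s).orth (fun q => k p q) (fun q => l q r)]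

/-- the unit matrix -/
theorem delta_mem (ho : ∀ s j k, ∑ i, S.a s i j * S.a s i k = if j = k then 1 else 0) :
    (fun i j => if i = j then (1 : A) else 0) ∈ S.mat := by
  intro s i j
  have h1 : ∀ p q, (S.a s p i * S.a s q j) • (if p = q then (1 : A) else 0) =
      if p = q then (S.a s p i * S.a s p j) • (1 : A) else 0 := by
    intro p q
    split_ifs with h
    · rw [h]
    · rw [smul_zero]
  simp only [h1, Finset.sum_ite_eq, Finset.mem_univ, if_true, ← Finset.sum_smul, ho s i j]
  split_ifs <;> simp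

/-! ### derivatives -/

/-- the gradient of an invariant function -/
theorem grad_mem {f : A} (hf : f ∈ S.scal) : (fun i => C.H i f) ∈ S.vec := by
  intro s i
  rw [(S.rot s).H, hf s]

/-- rotations of an invariant function -/
theorem V_mem {f : A} (hf : f ∈ S.scal) : (fun i j => C.V i j f) ∈ S.mat := by
  intro s i j
  rw [(S.rot s).V, hf s]

/-- the covariant derivative of a vector -/
theorem nabla_mem {w : Fin n → A} (hw : w ∈ S.vec) : (fun i j => C.H i (w j)) ∈ S.mat := by
  intro s i j
  rw [(S.rot s).H]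
  simp only [hw s, map_sum, Derivation.map_smul, Finset.smul_sum, smul_smul]

/-- the covariant derivative of a matrix -/
theorem nabla2_mem {k : Fin n → Fin n → A} (hk : k ∈ S.mat) :
    (fun i j l => C.H i (k j l)) ∈ S.ten3 := by
  intro s i j l
  rw [(S.rot s).H]
  simp only [hk s, map_sum, Derivation.map_smul, Finset.smul_sum, smul_smul, mul_assoc]

/-- rotations of a vector -/
theorem Vvec_mem {w : Fin n → A} (hw : w ∈ S.vec) : (fun i j l => C.V i j (w l)) ∈ S.ten3 := by
  intro s i j l
  rw [(S.rot s).V]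
  simp only [hw s, map_sum, Derivation.map_smul, Finset.smul_sum, smul_smul]

/-- the curvature form `K_ij = - R_i00j`-type contraction with a vector in two slots -/
theorem R_mem {w u : Fin n → A} (hw : w ∈ S.vec) (hu : u ∈ S.vec) :
    (fun i j => ∑ c, ∑ d, C.R i c d j * w c * u d) ∈ S.mat := by
  intro s i j
  simp only [map_sum, map_mul, (S.rot s).R, hw s, hu s]
  -- contract the two inner slots one after the other
  have h1 : ∀ c d, (∑ p, ∑ q, ∑ r, ∑ t, (S.a s p i * S.a s q c * S.a s r d * S.a s t j) •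
      C.R p q r t) * (∑ c', S.a s c' c • w c') * (∑ d', S.a s d' d • u d') =
      ∑ p, ∑ t, (S.a s p i * S.a s t j) • ∑ r, (∑ q, S.a s q c • C.R p q r t) *
        (∑ c', S.a s c' c • w c') * (S.a s r d • ∑ d', S.a s d' d • u d') := by
    intro c d
    rw [Finset.sum_mul, Finset.sum_mul]
    refine Finset.sum_congr rfl fun p _ => ?_
    have e1 : ∑ q, ∑ r, ∑ t, (S.a s p i * S.a s q c * S.a s r d * S.a s t j) • C.R p q r t =
        ∑ t, ∑ r, (S.a s p i * S.a s t j * S.a s r d) • ∑ q, S.a s q c • C.R p q r t := by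
      calc ∑ q, ∑ r, ∑ t, (S.a s p i * S.a s q c * S.a s r d * S.a s t j) • C.R p q r t
          = ∑ q, ∑ t, ∑ r, (S.a s p i * S.a s q c * S.a s r d * S.a s t j) • C.R p q r t :=
            Finset.sum_congr rfl fun q _ => Finset.sum_comm
        _ = ∑ t, ∑ q, ∑ r, (S.a s p i * S.a s q c * S.a s r d * S.a s t j) • C.R p q r t :=
            Finset.sum_comm
        _ = ∑ t, ∑ r, ∑ q, (S.a s p i * S.a s q c * S.a s r d * S.a s t j) • C.R p q r t :=
            Finset.sum_congr rfl fun t _ => Finset.sum_comm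
        _ = _ := by
            refine Finset.sum_congr rfl fun t _ => Finset.sum_congr rfl fun r _ => ?_
            rw [Finset.smul_sum]
            refine Finset.sum_congr rfl fun q _ => ?_
            rw [smul_smul]
            congr 1
            ring
    rw [e1, Finset.sum_mul, Finset.sum_mul]
    refine Finset.sum_congr rfl fun t _ => ?_
    rw [Finset.sum_mul, Finset.sum_mul, Finset.smul_sum]
    refine Finset.sum_congr rfl fun r _ => ?_
    rw [mul_smul_comm, smul_smul, smul_mul_assoc, smul_mul_assoc]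
  simp only [h1]
  have h2 : ∀ c, ∑ d, ∑ p, ∑ t, (S.a s p i * S.a s t j) • ∑ r, (∑ q, S.a s q c • C.R p q r t) *
        (∑ c', S.a s c' c • w c') * (S.a s r d • ∑ d', S.a s d' d • u d') =
      ∑ p, ∑ t, (S.a s p i * S.a s t j) • ∑ r, (∑ q, S.a s q c • C.R p q r t) *
        (∑ c', S.a s c' c • w c') * u r := by
    intro c
    calc ∑ d, ∑ p, ∑ t, (S.a s p i * S.a s t j) • ∑ r, (∑ q, S.a s q c • C.R p q r t) *
          (∑ c', S.a s c' c • w c') * (S.a s r d • ∑ d', S.a s d' d • u d')
        = ∑ p, ∑ d, ∑ t, (S.a s p i * S.a s t j) • ∑ r, (∑ q, S.a s q c • C.R p q r t) *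
          (∑ c', S.a s c' c • w c') * (S.a s r d • ∑ d', S.a s d' d • u d') := Finset.sum_comm
      _ = ∑ p, ∑ t, ∑ d, (S.a s p i * S.a s t j) • ∑ r, (∑ q, S.a s q c • C.R p q r t) *
          (∑ c', S.a s c' c • w c') * (S.a s r d • ∑ d', S.a s d' d • u d') :=
          Finset.sum_congr rfl fun p _ => Finset.sum_comm
      _ = _ := by
          refine Finset.sum_congr rfl fun p _ => Finset.sum_congr rfl fun t _ => ?_
          rw [← Finset.smul_sum]
          congr 1
          rw [Finset.sum_comm]
          refine Finset.sum_congr rfl fun r _ => ?_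
          rw [← Finset.mul_sum]
          congr 1
          simp only [Finset.smul_sum, smul_smul]
          rw [Finset.sum_comm]
          simp only [← Finset.sum_smul, (S.rot s).orth r]
          simp
  simp only [h2]
  calc ∑ c, ∑ p, ∑ t, (S.a s p i * S.a s t j) • ∑ r, (∑ q, S.a s q c • C.R p q r t) *
        (∑ c', S.a s c' c • w c') * u r
      = ∑ p, ∑ c, ∑ t, (S.a s p i * S.a s t j) • ∑ r, (∑ q, S.a s q c • C.R p q r t) *
        (∑ c', S.a s c' c • w c') * u r := Finset.sum_comm
    _ = ∑ p, ∑ t, ∑ c, (S.a s p i * S.a s t j) • ∑ r, (∑ q, S.a s q c • C.R p q r t) *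
        (∑ c', S.a s c' c • w c') * u r := Finset.sum_congr rfl fun p _ => Finset.sum_comm
    _ = _ := by
        refine Finset.sum_congr rfl fun p _ => Finset.sum_congr rfl fun t _ => ?_
        rw [← Finset.smul_sum]
        congr 1
        rw [Finset.sum_comm]
        calc ∑ r, ∑ c, (∑ q, S.a s q c • C.R p q r t) * (∑ c', S.a s c' c • w c') * u r
            = ∑ r, (∑ c, C.R p c r t * w c) * u r := by
              refine Finset.sum_congr rfl fun r _ => ?_
              rw [← Finset.sum_mul, sum_mul_orth (S.rot s).orth (fun q => C.R p q r t) w]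
          _ = ∑ c, ∑ d, C.R p c d t * w c * u d := by
              simp only [Finset.sum_mul]
              rw [Finset.sum_comm]

/-! ### traces of derivatives -/

theorem tr12_mem {T : Fin n → Fin n → Fin n → A} (hT : T ∈ S.ten3) :
    (fun k => ∑ i, T i i k) ∈ S.vec := by
  intro s k
  simp only [map_sum, hT s]
  calc ∑ i, ∑ p, ∑ q, ∑ r, (S.a s p i * S.a s q i * S.a s r k) • T p q r
      = ∑ i, ∑ p, ∑ q, (S.a s p i * S.a s q i) • ∑ r, S.a s r k • T p q r := by
        simp only [Finset.smul_sum, smul_smul]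
    _ = ∑ p, ∑ r, S.a s r k • T p p r :=
        sum_orth (S.rot s).orth fun p q => ∑ r, S.a s r k • T p q r
    _ = _ := by
        rw [Finset.sum_comm]
        exact Finset.sum_congr rfl fun r _ => (Finset.smul_sum ..).symm

theorem tr13_mem {T : Fin n → Fin n → Fin n → A} (hT : T ∈ S.ten3) :
    (fun k => ∑ i, T i k i) ∈ S.vec := by
  intro s k
  simp only [map_sum, hT s]
  calc ∑ i, ∑ p, ∑ q, ∑ r, (S.a s p i * S.a s q k * S.a s r i) • T p q r
      = ∑ i, ∑ p, ∑ r, (S.a s p i * S.a s r i) • ∑ q, S.a s q k • T p q r := by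
        refine Finset.sum_congr rfl fun i _ => Finset.sum_congr rfl fun p _ => ?_
        rw [Finset.sum_comm]
        refine Finset.sum_congr rfl fun r _ => ?_
        rw [Finset.smul_sum]
        refine Finset.sum_congr rfl fun q _ => ?_
        rw [smul_smul]
        congr 1
        ring
    _ = ∑ p, ∑ q, S.a s q k • T p q p :=
        sum_orth (S.rot s).orth fun p r => ∑ q, S.a s q k • T p q r
    _ = _ := by
        rw [Finset.sum_comm]
        exact Finset.sum_congr rfl fun r _ => (Finset.smul_sum ..).symm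

theorem tr23_mem {T : Fin n → Fin n → Fin n → A} (hT : T ∈ S.ten3) :
    (fun k => ∑ i, T k i i) ∈ S.vec := by
  intro s k
  simp only [map_sum, hT s]
  calc ∑ i, ∑ p, ∑ q, ∑ r, (S.a s p k * S.a s q i * S.a s r i) • T p q r
      = ∑ i, ∑ q, ∑ r, (S.a s q i * S.a s r i) • ∑ p, S.a s p k • T p q r := by
        refine Finset.sum_congr rfl fun i _ => ?_
        calc ∑ p, ∑ q, ∑ r, (S.a s p k * S.a s q i * S.a s r i) • T p q r
            = ∑ q, ∑ p, ∑ r, (S.a s p k * S.a s q i * S.a s r i) • T p q r := Finset.sum_comm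
          _ = ∑ q, ∑ r, ∑ p, (S.a s p k * S.a s q i * S.a s r i) • T p q r :=
              Finset.sum_congr rfl fun q _ => Finset.sum_comm
          _ = _ := by
              refine Finset.sum_congr rfl fun q _ => Finset.sum_congr rfl fun r _ => ?_
              rw [Finset.smul_sum]
              refine Finset.sum_congr rfl fun p _ => ?_
              rw [smul_smul]
              congr 1
              ring
    _ = ∑ q, ∑ p, S.a s p k • T p q q :=
        sum_orth (S.rot s).orth fun q r => ∑ p, S.a s p k • T p q r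
    _ = _ := by
        rw [Finset.sum_comm]
        exact Finset.sum_congr rfl fun r _ => (Finset.smul_sum ..).symm

/-- the divergence of a vector -/
theorem div_mem {w : Fin n → A} (hw : w ∈ S.vec) : ∑ i, C.H i (w i) ∈ S.scal :=
  tr_mem (nabla_mem hw)

/-- the divergence of a matrix -/
theorem divf_mem {k : Fin n → Fin n → A} (hk : k ∈ S.mat) : divf C k ∈ S.vec :=
  tr12_mem (nabla2_mem hk)

/-- the Lie derivative of the metric -/
theorem Lf_mem {w : Fin n → A} (hw : w ∈ S.vec) : Lf C w ∈ S.mat :=
  S.mat.add_mem (nabla_mem hw) (mat_swap (nabla_mem hw))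

/-! ### the Casimir operator -/

theorem E_lap (s : ι) (f : A) : S.E s (C.lap f) = C.lap (S.E s f) := by
  unfold FrCalc.lap
  rw [map_sum]
  simp only [(S.rot s).H, map_sum, Derivation.map_smul, Finset.smul_sum, smul_smul]
  exact sum_orth (S.rot s).orth fun k l => C.H k (C.H l (S.E s f))

end RotAct

end Vale.Agent.P207.H158
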