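import Vale.Agent.P207.H158.Adm

/-!
# P207 / H158: the Casimir operator and rotations; admissible fields
-/

set_option linter.unusedSectionVars false

noncomputable section

namespace Vale.Agent.P207.H158

open Vale.Agent.P207.H442 Vale.Agent.P207.Kat Finset

variable {n : ℕ} {A : Type*} [CommRing A] [Algebra ℝ A]

/-- contraction over a general index set -/
theorem sum_mul_orth' {κ : Type*} [Fintype κ] [DecidableEq κ] {b : κ → κ → ℝ}
    (ho : ∀ j k, ∑ i, b j i * b k i = if j = k then 1 else 0) (y z : κ → A) :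
    ∑ i, (∑ k, b k i • y k) * (∑ l, b l i • z l) = ∑ k, y k * z k := by
  calc ∑ i, (∑ k, b k i • y k) * (∑ l, b l i • z l)
      = ∑ i, ∑ k, ∑ l, (b k i * b l i) • (y k * z l) := by
        refine Finset.sum_congr rfl fun i _ => ?_
        rw [Finset.sum_mul_sum]
        refine Finset.sum_congr rfl fun k _ => Finset.sum_congr rfl fun l _ => ?_
        rw [smul_mul_smul_comm]
    _ = ∑ k, ∑ i, ∑ l, (b k i * b l i) • (y k * z l) := Finset.sum_comm
    _ = ∑ k, ∑ l, ∑ i, (b k i * b l i) • (y k * z l) :=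
        Finset.sum_congr rfl fun k _ => Finset.sum_comm
    _ = ∑ k, ∑ l, (if k = l then (1 : ℝ) else 0) • (y k * z l) := by
        simp only [← Finset.sum_smul, ho]
    _ = ∑ k, y k * z k := by simp

/-- four indices -/
theorem sum4_mul_orth {a : Matrix (Fin n) (Fin n) ℝ}
    (ho : ∀ j k, ∑ i, a j i * a k i = if j = k then 1 else 0)
    (Y Z : Fin n → Fin n → Fin n → Fin n → A) :
    ∑ i, ∑ j, ∑ k, ∑ l,
      (∑ p, ∑ q, ∑ r, ∑ s, (a p i * a q j * a r k * a s l) • Y p q r s) *
      (∑ p, ∑ q, ∑ r, ∑ s, (a p i * a q j * a r k * a s l) • Z p q r s) =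
    ∑ i, ∑ j, ∑ k, ∑ l, Y i j k l * Z i j k l := by
  have h := sum_mul_orth' (κ := Fin n × Fin n × Fin n × Fin n)
    (b := fun u v => a u.1 v.1 * a u.2.1 v.2.1 * a u.2.2.1 v.2.2.1 * a u.2.2.2 v.2.2.2) (by
      rintro ⟨p, q, r, s⟩ ⟨p', q', r', s'⟩
      simp only [Fintype.sum_prod_type]
      have e1 : ∀ i j k l : Fin n, a p i * a q j * a r k * a s l * (a p' i * a q' j * a r' k *
          a s' l) = (a p i * a p' i) * ((a q j * a q' j) * ((a r k * a r' k) *
            (a s l * a s' l))) := fun i j k l => by ring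
      simp only [e1, ← Finset.mul_sum, ← Finset.sum_mul, ho]
      by_cases h1 : p = p' <;> by_cases h2 : q = q' <;> by_cases h3 : r = r' <;>
        by_cases h4 : s = s' <;> simp [h1, h2, h3, h4])
    (fun u => Y u.1 u.2.1 u.2.2.1 u.2.2.2) (fun u => Z u.1 u.2.1 u.2.2.1 u.2.2.2)
  simp only [Fintype.sum_prod_type] at h
  exact h

variable {C : FrCalc n A}

namespace IsRot

variable {a : Matrix (Fin n) (Fin n) ℝ} {E : A →ₐ[ℝ] A}

theorem VV (h : IsRot C a E) (i j k l : Fin n) (f : A) : E (C.V i j (C.V k l f)) =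
    ∑ p, ∑ q, ∑ r, ∑ s, (a p i * a q j * a r k * a s l) • C.V p q (C.V r s (E f)) := by
  rw [h.V, h.V]
  simp only [map_sum, Derivation.map_smul, Finset.smul_sum, smul_smul]
  refine Finset.sum_congr rfl fun p _ => Finset.sum_congr rfl fun q _ =>
    Finset.sum_congr rfl fun r _ => Finset.sum_congr rfl fun s _ => ?_
  congr 1
  ring

theorem orth' (h : IsRot C a E) (j k : Fin n) :
    ∑ i, a i j * a i k = if j = k then 1 else 0 := by
  have h1 : a * a.transpose = 1 := by
    ext p q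
    rw [Matrix.mul_apply, Matrix.one_apply]
    exact h.orth p q
  have h2 : a.transpose * a = 1 := mul_eq_one_comm.1 h1
  have h3 := congrFun (congrFun h2 j) k
  rw [Matrix.mul_apply, Matrix.one_apply] at h3
  exact h3

theorem lap (h : IsRot C a E) (f : A) : E (C.lap f) = C.lap (E f) := by
  unfold FrCalc.lap
  rw [map_sum]
  simp only [h.H, map_sum, Derivation.map_smul, Finset.smul_sum, smul_smul]
  exact sum_orth h.orth fun k l => C.H k (C.H l (E f))

theorem curv (h : IsRot C a E) (f : A) : E (C.curv f) = C.curv (E f) := by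
  unfold FrCalc.curv
  simp only [map_sum, map_mul, h.R, h.VV]
  exact sum4_mul_orth h.orth C.R fun p q r s => C.V p q (C.V r s (E f))

/-- **the Casimir operator commutes with the rotations of the frames** -/
theorem cas (h : IsRot C a E) (f : A) : E (C.cas f) = C.cas (E f) := by
  unfold FrCalc.cas
  rw [map_sub, map_smul, h.lap, h.curv]

end IsRot

namespace RotAct

variable {ι : Type*} {S : RotAct C ι}

theorem scal_cas {f : A} (hf : f ∈ S.scal) : C.cas f ∈ S.scal := fun s => by
  rw [(S.rot s).cas, hf s]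

theorem vec_cas {w : Fin n → A} (hw : w ∈ S.vec) : (fun i => C.cas (w i)) ∈ S.vec := by
  intro s i
  rw [(S.rot s).cas, hw s i, FrCalc.cas_sum]
  exact Finset.sum_congr rfl fun j _ => FrCalc.cas_smul _ _

theorem mat_cas {k : Fin n → Fin n → A} (hk : k ∈ S.mat) :
    (fun i j => C.cas (k i j)) ∈ S.mat := by
  intro s i j
  rw [(S.rot s).cas, hk s i j, FrCalc.cas_sum]
  refine Finset.sum_congr rfl fun p _ => ?_
  rw [FrCalc.cas_sum]
  exact Finset.sum_congr rfl fun q _ => FrCalc.cas_smul _ _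

end RotAct

/-! ### the stabiliser of `e₀` -/

variable (C) in
/-- a family of rotations of the frames which fix the vector `v = e₀` -/
structure StabAct (ι : Type*) [NeZero n] extends RotAct C ι where
  col : ∀ s j, a s j 0 = if j = 0 then 1 else 0

/-- the components of `v` -/
def e0 [NeZero n] : Fin n → A := fun i => if i = 0 then 1 else 0

variable [NeZero n]

theorem sum_e0_mul (w : Fin n → A) : ∑ i, e0 i * w i = w 0 := by
  simp [e0]

theorem sum_mul_e0 (w : Fin n → A) : ∑ i, w i * e0 i = w 0 := by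
  simp [e0]

theorem perp_eq (w : Fin n → A) : perp w = fun i => w i - w 0 * e0 i := by
  funext i
  unfold perp e0
  split_ifs with h
  · rw [h, mul_one, sub_self]
  · rw [mul_zero, sub_zero]

@[simp] theorem perp_zero (w : Fin n → A) : perp w 0 = 0 := if_pos rfl

theorem perp_of_ne (w : Fin n → A) {i : Fin n} (h : i ≠ 0) : perp w i = w i := if_neg h

theorem perp_add (w u : Fin n → A) : perp (fun i => w i + u i) = fun i => perp w i + perp u i := by
  funext i
  unfold perp
  split_ifs <;> simp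

/-- pairings with fields orthogonal to `v` -/
theorem sum_perp_mul (w : Fin n → A) {y : Fin n → A} (hy : y 0 = 0) :
    ∑ i, perp w i * y i = ∑ i, w i * y i := by
  refine Finset.sum_congr rfl fun i _ => ?_
  by_cases h : i = 0
  · rw [h, hy, mul_zero, mul_zero]
  · rw [perp_of_ne w h]

namespace StabAct

variable {ι : Type*} {S : StabAct C ι}

theorem row (s : ι) (j : Fin n) : S.a s 0 j = if j = 0 then 1 else 0 := by
  have h1 := (S.rot s).orth 0 0
  rw [if_pos rfl] at h1
  have h0 : S.a s 0 0 = 1 := by rw [S.col s 0, if_pos rfl]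
  rw [← Finset.add_sum_erase _ _ (Finset.mem_univ (0 : Fin n)), h0, one_mul, add_eq_left] at h1
  by_cases hj : j = 0
  · rw [hj, h0, if_pos rfl]
  · rw [if_neg hj]
    have h2 := (Finset.sum_eq_zero_iff_of_nonneg (fun i _ => mul_self_nonneg (S.a s 0 i))).1 h1 j
      (Finset.mem_erase.2 ⟨hj, Finset.mem_univ j⟩)
    exact mul_self_eq_zero.1 h2

theorem e0_mem : e0 ∈ S.toRotAct.vec := by
  intro s i
  have h1 : ∀ j, S.a s j i • (e0 j : A) = if j = 0 then S.a s 0 i • (1 : A) else 0 := by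
    intro j
    unfold e0
    split_ifs with h
    · rw [h]
    · rw [smul_zero]
  simp only [h1, Finset.sum_ite_eq', Finset.mem_univ, if_true, row]
  unfold e0
  split_ifs <;> simp

/-- the component along `v` -/
theorem vec_zero {w : Fin n → A} (hw : w ∈ S.toRotAct.vec) : w 0 ∈ S.toRotAct.scal := by
  rw [← sum_e0_mul w]
  exact RotAct.dot_mem e0_mem hw

theorem mat_row {k : Fin n → Fin n → A} (hk : k ∈ S.toRotAct.mat) :
    (fun j => k 0 j) ∈ S.toRotAct.vec := by
  have h1 : (fun j => k 0 j) = fun j => ∑ i, k i j * e0 i := by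
    funext j
    rw [sum_mul_e0 fun i => k i j]
  rw [h1]
  exact RotAct.app_mem (RotAct.mat_swap hk) e0_mem

theorem mat_col {k : Fin n → Fin n → A} (hk : k ∈ S.toRotAct.mat) :
    (fun i => k i 0) ∈ S.toRotAct.vec := by
  have h1 : (fun i => k i 0) = fun i => ∑ j, k i j * e0 j := by
    funext i
    rw [sum_mul_e0 fun j => k i j]
  rw [h1]
  exact RotAct.app_mem hk e0_mem

theorem mat_zero {k : Fin n → Fin n → A} (hk : k ∈ S.toRotAct.mat) : k 0 0 ∈ S.toRotAct.scal :=
  vec_zero (mat_row hk)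

theorem perp_mem_vec {w : Fin n → A} (hw : w ∈ S.toRotAct.vec) : perp w ∈ S.toRotAct.vec := by
  rw [perp_eq]
  exact S.toRotAct.vec.sub_mem hw (RotAct.vec_mul (vec_zero hw) e0_mem)

variable (S) in
/-- admissible fields: equivariant and orthogonal to `v` -/
def adm : Submodule ℝ (Fin n → A) where
  carrier := {y | y ∈ S.toRotAct.vec ∧ y 0 = 0}
  add_mem' {y z} hy hz := ⟨S.toRotAct.vec.add_mem hy.1 hz.1, by
    rw [Pi.add_apply, hy.2, hz.2, add_zero]⟩
  zero_mem' := ⟨S.toRotAct.vec.zero_mem, rfl⟩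
  smul_mem' c y hy := ⟨S.toRotAct.vec.smul_mem c hy.1, by
    rw [Pi.smul_apply, hy.2, smul_zero]⟩

theorem mem_adm {y : Fin n → A} : y ∈ S.adm ↔
    (∀ s i, S.E s (y i) = ∑ j, S.a s j i • y j) ∧ y 0 = 0 := Iff.rfl

theorem perp_mem {w : Fin n → A} (hw : w ∈ S.toRotAct.vec) : perp w ∈ S.adm :=
  ⟨perp_mem_vec hw, perp_zero w⟩

theorem adm_mul {f : A} (hf : f ∈ S.toRotAct.scal) {y : Fin n → A} (hy : y ∈ S.adm) :
    (fun i => f * y i) ∈ S.adm :=
  ⟨RotAct.vec_mul hf hy.1, by simp only [hy.2, mul_zero]⟩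

/-- the pairing of two fields -/
theorem adm_dot {y z : Fin n → A} (hy : y ∈ S.adm) (hz : z ∈ S.adm) :
    ∑ i, y i * z i ∈ S.toRotAct.scal := RotAct.dot_mem hy.1 hz.1

/-! #### the geodesic vector field `X = H 0` -/

theorem X_scal {f : A} (hf : f ∈ S.toRotAct.scal) : C.H 0 f ∈ S.toRotAct.scal :=
  vec_zero (RotAct.grad_mem hf)

theorem X_vec {w : Fin n → A} (hw : w ∈ S.toRotAct.vec) :
    (fun i => C.H 0 (w i)) ∈ S.toRotAct.vec := mat_row (RotAct.nabla_mem hw)

theorem X_adm {y : Fin n → A} (hy : y ∈ S.adm) : (fun i => C.H 0 (y i)) ∈ S.adm :=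
  ⟨X_vec hy.1, by simp only [hy.2, map_zero]⟩

/-! #### vertical and horizontal gradients -/

variable (C) in
/-- the vertical gradient `(V_0i f)_i` -/
def vgr (f : A) (i : Fin n) : A := C.V 0 i f

variable (C) in
/-- the horizontal gradient `(H_i f)_{i ≠ 0}` -/
def hgr (f : A) : Fin n → A := perp fun i => C.H i f

variable (C) in
/-- minus the adjoint of the vertical gradient -/
def vdiv (y : Fin n → A) : A := ∑ i, C.V 0 i (y i)

variable (C) in
/-- minus the adjoint of the horizontal gradient (on fields orthogonal to `v`) -/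
def hdiv (y : Fin n → A) : A := ∑ i, C.H i (y i)

theorem vgr_mem {f : A} (hf : f ∈ S.toRotAct.scal) : vgr C f ∈ S.adm :=
  ⟨mat_row (RotAct.V_mem hf), FrCalc.V_self 0 f⟩

theorem hgr_mem {f : A} (hf : f ∈ S.toRotAct.scal) : hgr C f ∈ S.adm :=
  perp_mem (RotAct.grad_mem hf)

/-- `V_0i y_j` -/
theorem V0_mem {w : Fin n → A} (hw : w ∈ S.toRotAct.vec) :
    (fun i j => C.V 0 i (w j)) ∈ S.toRotAct.mat := by
  have h1 : (fun i j => C.V 0 i (w j)) = fun i j => ∑ c, e0 c * C.V c i (w j) := by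
    funext i j
    rw [sum_e0_mul fun c => C.V c i (w j)]
  rw [h1]
  intro s i j
  have h2 := RotAct.Vvec_mem (S := S.toRotAct) hw
  simp only [map_sum, map_mul, e0_mem (S := S) s, h2 s _ _ _]
  have h3 : ∀ c, (∑ p, S.a s p c • (e0 p : A)) *
      (∑ p, ∑ q, ∑ r, (S.a s p c * S.a s q i * S.a s r j) • C.V p q (w r)) =
      ∑ q, ∑ r, (S.a s q i * S.a s r j) • ((∑ p, S.a s p c • (e0 p : A)) *
        ∑ p, S.a s p c • C.V p q (w r)) := by
    intro c
    have e1 : ∑ p, ∑ q, ∑ r, (S.a s p c * S.a s q i * S.a s r j) • C.V p q (w r) =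
        ∑ q, ∑ r, (S.a s q i * S.a s r j) • ∑ p, S.a s p c • C.V p q (w r) := by
      calc ∑ p, ∑ q, ∑ r, (S.a s p c * S.a s q i * S.a s r j) • C.V p q (w r)
          = ∑ q, ∑ p, ∑ r, (S.a s p c * S.a s q i * S.a s r j) • C.V p q (w r) :=
            Finset.sum_comm
        _ = ∑ q, ∑ r, ∑ p, (S.a s p c * S.a s q i * S.a s r j) • C.V p q (w r) :=
            Finset.sum_congr rfl fun q _ => Finset.sum_comm
        _ = _ := by
            refine Finset.sum_congr rfl fun q _ => Finset.sum_congr rfl fun r _ => ?_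
            rw [Finset.smul_sum]
            refine Finset.sum_congr rfl fun p _ => ?_
            rw [smul_smul]
            congr 1
            ring
    rw [e1, Finset.mul_sum]
    refine Finset.sum_congr rfl fun q _ => ?_
    rw [Finset.mul_sum]
    exact Finset.sum_congr rfl fun r _ => mul_smul_comm _ _ _
  simp only [h3]
  rw [Finset.sum_comm]
  refine Finset.sum_congr rfl fun q _ => ?_
  rw [Finset.sum_comm]
  refine Finset.sum_congr rfl fun r _ => ?_
  rw [← Finset.smul_sum, sum_mul_orth (S.rot s).orth e0 fun p => C.V p q (w r)]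

theorem vdiv_mem {y : Fin n → A} (hy : y ∈ S.toRotAct.vec) : vdiv C y ∈ S.toRotAct.scal :=
  RotAct.tr_mem (V0_mem hy)

theorem hdiv_mem {y : Fin n → A} (hy : y ∈ S.toRotAct.vec) : hdiv C y ∈ S.toRotAct.scal :=
  RotAct.div_mem hy

/-! #### matrix fields -/

variable (S) in
/-- endomorphisms of the orthogonal complement of `v` -/
def matp : Submodule ℝ (Fin n → Fin n → A) where
  carrier := {k | k ∈ S.toRotAct.mat ∧ (∀ j, k 0 j = 0) ∧ ∀ i, k i 0 = 0}
  add_mem' {y z} hy hz := ⟨S.toRotAct.mat.add_mem hy.1 hz.1,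
    fun j => by rw [Pi.add_apply, Pi.add_apply, hy.2.1, hz.2.1, add_zero],
    fun i => by rw [Pi.add_apply, Pi.add_apply, hy.2.2, hz.2.2, add_zero]⟩
  zero_mem' := ⟨S.toRotAct.mat.zero_mem, fun _ => rfl, fun _ => rfl⟩
  smul_mem' c y hy := ⟨S.toRotAct.mat.smul_mem c hy.1,
    fun j => by rw [Pi.smul_apply, Pi.smul_apply, hy.2.1, smul_zero],
    fun i => by rw [Pi.smul_apply, Pi.smul_apply, hy.2.2, smul_zero]⟩

/-- a matrix field times a field -/
theorem matp_app {k : Fin n → Fin n → A} (hk : k ∈ S.toRotAct.mat) (h0 : ∀ j, k 0 j = 0)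
    {w : Fin n → A} (hw : w ∈ S.toRotAct.vec) : (fun i => ∑ j, k i j * w j) ∈ S.adm :=
  ⟨RotAct.app_mem hk hw, by simp only [h0, zero_mul, Finset.sum_const_zero]⟩

theorem matp_app' {k : Fin n → Fin n → A} (hk : k ∈ S.matp) {w : Fin n → A}
    (hw : w ∈ S.toRotAct.vec) : (fun i => ∑ j, k i j * w j) ∈ S.adm :=
  matp_app hk.1 hk.2.1 hw

theorem matp_mul {k l : Fin n → Fin n → A} (hk : k ∈ S.matp) (hl : l ∈ S.matp) :
    (fun i j => ∑ c, k i c * l c j) ∈ S.matp :=
  ⟨RotAct.mul_mem hk.1 hl.1, fun j => by simp only [hk.2.1, zero_mul, Finset.sum_const_zero],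
    fun i => by simp only [hl.2.2, mul_zero, Finset.sum_const_zero]⟩

/-- the projection onto the orthogonal complement of `v` -/
def Pip (i j : Fin n) : A := (if i = j then 1 else 0) - e0 i * e0 j

/-- **the Jacobi operator is a matrix field** -/
theorem Kf_mem : Kf C ∈ S.matp := by
  refine ⟨?_, fun j => by rw [Kf, FrCalc.R_self, neg_zero], fun i => ?_⟩
  · have h1 := RotAct.R_mem (S := S.toRotAct) (w := e0) (u := e0) e0_mem e0_mem
    have h2 : Kf C = -fun i j => ∑ c, ∑ d, C.R i c d j * e0 c * e0 d := by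
      funext i j
      rw [Pi.neg_apply, Pi.neg_apply, Kf]
      congr 1
      have h3 : ∀ c, ∑ d, C.R i c d j * e0 c * e0 d = C.R i c 0 j * e0 c := fun c =>
        sum_mul_e0 fun d => C.R i c d j * e0 c
      simp only [h3]
      rw [sum_mul_e0 fun c => C.R i c 0 j]
    rw [h2]
    exact S.toRotAct.mat.neg_mem h1
  · rw [Kf, C.R_pair, FrCalc.R_self, neg_zero]

/-- the projection onto the orthogonal complement of `v` is a matrix field -/
theorem Pip_mem : (Pip : Fin n → Fin n → A) ∈ S.matp := by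
  refine ⟨S.toRotAct.mat.sub_mem (RotAct.delta_mem fun s => (S.rot s).orth') (RotAct.vec_vec e0_mem e0_mem),
    fun j => ?_, fun i => ?_⟩
  · unfold Pip e0
    by_cases h : (0 : Fin n) = j
    · simp [← h]
    · have h' : ¬ j = 0 := fun h1 => h h1.symm
      simp [h, h']
  · unfold Pip e0
    by_cases h : i = 0
    · simp [h]
    · simp [h]

/-! #### tensors -/

/-- the field `Z` -/
theorem Zf_mem {k : Fin n → Fin n → A} (hk : k ∈ S.toRotAct.mat) : Zf C k ∈ S.toRotAct.vec :=
  S.toRotAct.vec.sub_mem (X_vec (mat_row hk))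
    (S.toRotAct.vec.smul_mem (1 / 2 : ℝ) (RotAct.grad_mem (mat_zero hk)))

theorem perp_Zf_mem {k : Fin n → Fin n → A} (hk : k ∈ S.toRotAct.mat) :
    perp (Zf C k) ∈ S.adm := perp_mem (Zf_mem hk)

end StabAct

end Vale.Agent.P207.H158
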